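import Vale.Agent.Lib.P310.Card

namespace Vale.Agent.Results.P310.A_eth

open scoped Classical
open Vale.Agent.Lib.P310

lemma solvable_iff {α : Type} [Fintype α] (Φ : Finset (Finset (α × Bool))) (k : ℕ)
    (group : α → Fin k) :
    (cnfCov Φ k group).Solvable ↔ ∃ v : α → Bool, ∀ C ∈ Φ, ∃ l ∈ C, v l.1 = l.2 := by
  constructor
  · rintro ⟨a, ha⟩
    refine ⟨fun x => a (group x) ⟨x, rfl⟩, fun C hC => ?_⟩
    obtain ⟨g, l, hl, h, hv⟩ := ha ⟨C, hC⟩
    refine ⟨l, hl, ?_⟩
    subst h
    exact hv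
  · rintro ⟨v, hv⟩
    refine ⟨fun g x => v x.1, fun C => ?_⟩
    obtain ⟨l, hl, he⟩ := hv C.1 C.2
    exact ⟨group l.1, l, hl, rfl, he⟩

/-- For a CNF formula `Φ` with its variables split into `k` groups of at most `ℓ` variables, each
group meeting at most `D` clauses, and for every `w ≥ k + 2`: the two explicit simple graphs
`Gr w 0` and `Gr w 1` have the same number of vertices, at most `sizeBound k w |Φ| (2 ^ ℓ) D`, and
they are `(k + w)`-WL equivalent exactly when `Φ` is unsatisfiable. -/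
theorem result {α : Type} [Fintype α] (Φ : Finset (Finset (α × Bool))) (k w ℓ D : ℕ)
    (group : α → Fin k) (hw : k + 2 ≤ w)
    (hℓ : ∀ g, Fintype.card {x // group x = g} ≤ ℓ)
    (hD : ∀ g, (Φ.filter (fun C => ∃ l ∈ C, group l.1 = g)).card ≤ D) :
    Fintype.card (Cov.Vtx (cnfCov Φ k group) w 1) = Fintype.card (Cov.Vtx (cnfCov Φ k group) w 0) ∧
    Fintype.card (Cov.Vtx (cnfCov Φ k group) w 0) ≤ sizeBound k w Φ.card (2 ^ ℓ) D ∧
    (WLEquiv (k + w) (Cov.Gr (cnfCov Φ k group) w 0) (Cov.Gr (cnfCov Φ k group) w 1) ↔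
      ¬ ∃ v : α → Bool, ∀ C ∈ Φ, ∃ l ∈ C, v l.1 = l.2) := by
  refine ⟨Cov.card_vtx (by omega), ?_, ?_⟩
  · have h := Cov.card_bound (I := cnfCov Φ k group) (w := w) (A0 := 2 ^ ℓ) (D := D) hw ?_ ?_
    · have hc : Fintype.card (cnfCov Φ k group).Cl = Φ.card := by
        simp [cnfCov]
      rw [hc] at h
      exact h
    · intro g
      rw [← Nat.card_eq_fintype_card]
      change Nat.card ({x // group x = g} → Bool) ≤ 2 ^ ℓ
      rw [Nat.card_fun, Nat.card_eq_fintype_card (α := Bool),
        Nat.card_eq_fintype_card (α := {x // group x = g})]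
      simp only [Fintype.card_bool]
      apply Nat.pow_le_pow_right (by norm_num)
      convert hℓ g
    · intro g a
      refine le_trans ?_ (hD g)
      apply Finset.card_le_card_of_injOn (fun C => C.1)
      · intro C hC
        have hC' := (Finset.mem_filter.1 hC).2
        obtain ⟨l, hl, h, -⟩ := hC'
        simp only [Finset.coe_filter, Set.mem_ofPred_eq]
        exact ⟨C.2, l, hl, h⟩
      · intro C _ C' _ h
        exact Subtype.ext h
  · rw [← solvable_iff Φ k group]
    exact Cov.wlEquiv_iff hw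

end Vale.Agent.Results.P310.A_eth
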