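import Vale.Agent.Lib.P310.N.Final

namespace Vale.Agent.Results.P310.B_prog

open scoped Classical
open Vale.Agent.Lib.P310 Vale.Agent.Lib.P310.N

/-- Reduction from alternating programs on frames to `p`-WL equivalence. Let `p ≥ 2` and let `P` be
an alternating program on frames `L : Fin p → (ZMod 2)^b` (nodes: gates, reads of a column, writes
translating the frame by a vector of sum zero, accepting nodes), `start` a node and `L0` a frame.
The two explicit simple graphs of the reduction have the same number of vertices, at most
`sizeBound p b #gates #branches #reads #writes #accepts`, a polynomial in `p`, `2 ^ b` and the size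
of `P` with absolute exponent, and they are `p`-WL equivalent exactly when `P` does not accept `L0`
at `start`. -/
theorem result {p b : ℕ} (hp : 2 ≤ p) (P : Prog p b) (start : P.Node) (L0 : Frame p b) :
    P.nV hp start L0 1 = P.nV hp start L0 0 ∧
      P.nV hp start L0 0 ≤
        Prog.sizeBound p b (Fintype.card P.Ga) (Fintype.card P.Br) (Fintype.card P.Re)
          (Fintype.card P.Wr) (Fintype.card P.Ac) ∧
      (P.WLE hp start L0 ↔ ¬ P.Acc start L0) :=
  ⟨Prog.card_eq P hp start L0, Prog.card_le P hp start L0 0, Prog.reduction P hp start L0⟩

end Vale.Agent.Results.P310.B_prog
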