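import Vale.Agent.Lib.P310.M.Diag

namespace Vale.Agent.Results.P310.C_tm

open Vale.Agent.Lib.P310 Vale.Agent.Lib.P310.M

/-- The second part from the first: an exponent `o(k)` is eventually below `k / c`. -/
lemma no_sublinear (h : LowerBound) (g : ℕ → ℝ)
    (hg : Filter.Tendsto (fun k : ℕ => g k / k) Filter.atTop (nhds 0))
    (hA : ∀ k, 2 ≤ k → ∃ (M : TM) (C : ℝ), DecidesWL k M ∧
      ∀ (n : ℕ) (G H : SimpleGraph (Fin n)), 1 ≤ n →
        ∃ t : ℕ, (t : ℝ) ≤ C * (n : ℝ) ^ g k ∧ M.HaltsIn (encPair G H) t) : False := by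
  obtain ⟨c, k0, hc, hL⟩ := h
  have hc' : (0 : ℝ) < 1 / (2 * c) := by positivity
  have hev := (hg.eventually (gt_mem_nhds hc')).and (Filter.eventually_ge_atTop (k0 + 2 * c + 2))
  obtain ⟨k, hk1, hk2⟩ := hev.exists
  have hkpos : (0 : ℝ) < k := by
    have : 0 < k := by omega
    exact_mod_cast this
  obtain ⟨M, C, hdec, htime⟩ := hA k (by omega)
  refine hL k (by omega) M hdec ⌈C⌉₊ ?_
  intro n G H hn
  obtain ⟨t, ht, hh⟩ := htime n G H hn
  refine ⟨t, ?_, hh⟩
  have hn' : (1 : ℝ) ≤ n := by exact_mod_cast hn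
  -- the exponents
  have he1 : g k ≤ ((k / c : ℕ) : ℝ) := by
    have h1 : g k < k * (1 / (2 * c)) := by
      rwa [div_lt_iff₀' hkpos] at hk1
    have h2 : k < (k / c + 1) * c := by
      have := Nat.lt_div_mul_add (a := k) hc
      rw [add_mul, one_mul]
      exact this
    have h3 : (k : ℝ) < ((k / c : ℕ) + 1) * c := by exact_mod_cast h2
    have h4 : 2 * c ≤ k := by omega
    have h5 : 2 ≤ k / c := by
      rw [Nat.le_div_iff_mul_le hc]
      exact h4
    have h5' : (2 : ℝ) ≤ ((k / c : ℕ) : ℝ) := by exact_mod_cast h5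
    have hcpos : (0 : ℝ) < c := by exact_mod_cast hc
    have h6 : (k : ℝ) * (1 / (2 * c)) = k / (2 * c) := by ring
    rw [h6] at h1
    have h7 : (k : ℝ) / (2 * c) ≤ ((k / c : ℕ) : ℝ) := by
      rw [div_le_iff₀ (by positivity)]
      nlinarith
    linarith
  have hnpow : (n : ℝ) ^ g k ≤ (n : ℝ) ^ (k / c : ℕ) := by
    rw [← Real.rpow_natCast]
    exact Real.rpow_le_rpow_of_exponent_le hn' he1
  have hnpos : (0 : ℝ) < (n : ℝ) ^ g k := by positivity
  have hCpos : 0 ≤ C := by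
    by_contra hC
    push Not at hC
    have : C * (n : ℝ) ^ g k < 0 := mul_neg_of_neg_of_pos hC hnpos
    have ht0 : (0 : ℝ) ≤ t := Nat.cast_nonneg t
    linarith
  have hfin : (t : ℝ) ≤ (⌈C⌉₊ : ℝ) * (n : ℝ) ^ (k / c : ℕ) := by
    calc (t : ℝ) ≤ C * (n : ℝ) ^ g k := ht
      _ ≤ (⌈C⌉₊ : ℝ) * (n : ℝ) ^ (k / c : ℕ) :=
        mul_le_mul (Nat.le_ceil C) hnpow hnpos.le (by positivity)
  exact_mod_cast hfin

/-- **Deciding `k`-WL equivalence requires time `n ^ Ω(k)`.** There are absolute constants `c > 0`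
and `k0` such that for every `k ≥ k0`, no one-tape deterministic Turing machine which decides `k`-WL
equivalence of pairs of graphs on `n` vertices, given by their adjacency matrices, runs in time
`O(n ^ ⌊k / c⌋)`. In particular there is no function `g` with `g(k) = o(k)` such that for every
`k ≥ 2` some Turing machine decides `k`-WL equivalence in time `O(n ^ g(k))`. -/
theorem result :
    LowerBound ∧
      ¬ ∃ g : ℕ → ℝ, Filter.Tendsto (fun k : ℕ => g k / k) Filter.atTop (nhds 0) ∧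
        ∀ k, 2 ≤ k → ∃ (M : TM) (C : ℝ), DecidesWL k M ∧
          ∀ (n : ℕ) (G H : SimpleGraph (Fin n)), 1 ≤ n →
            ∃ t : ℕ, (t : ℝ) ≤ C * (n : ℝ) ^ g k ∧ M.HaltsIn (encPair G H) t :=
  ⟨lowerBound, fun ⟨g, hg, hA⟩ => no_sublinear lowerBound g hg hA⟩

end Vale.Agent.Results.P310.C_tm
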